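import Mathlib
import Vale.Agent.Helper25.TrilinearCover

/-!
# P141: the trilinear Hilbert transform is unbounded at every Hölder tuple with `r ≤ 37/80`

For Schwartz `f₁, f₂, f₃` let `T(f₁, f₂, f₃)(x)` be the limit, as `ε → 0+` and `R → ∞`, of
`∫_{ε < |t| < R} f₁(x - t) f₂(x - 2t) f₃(x - 3t) dt / t`.  We show: for real exponents
`p₁, p₂, p₃ > 1` and `0 < r ≤ 37/80` with `1/r = 1/p₁ + 1/p₂ + 1/p₃` there is no constant `C`
with `‖T(f₁, f₂, f₃)‖_{L^r} ≤ C ‖f₁‖_{p₁} ‖f₂‖_{p₂} ‖f₃‖_{p₃}` for all Schwartz `f₁, f₂, f₃`.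

The counterexamples are sums of integer translates of one bump with weights that are products
over the digits of the translate in a base between 17 and 25
(`Vale.Agent.Helper25.TrilinearDigits`); the gain of a digit configuration is bounded from below
by a double application of Jensen's inequality (`Vale.Agent.Helper25.TrilinearEntropy`).  Six
explicit configurations (`Vale.Agent.Helper25.TrilinearCov1`, …, `TrilinearCov6`) each settle an
open half-space of `(1/p₁, 1/p₂, 1/p₃)`, and these half-spaces cover all tuples with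
`1/p₁ + 1/p₂ + 1/p₃ ≥ 80/37` (`Vale.Agent.Helper25.TrilinearCover`).
-/

namespace Vale.Agent.Results.P141.AllTuplesR4625

open MeasureTheory

/-- **Unboundedness of the trilinear Hilbert transform for `r ≤ 37/80`.**
In the statement, `g` is the pointwise principal value `T(f₁, f₂, f₃)`: the hypothesis on `g`
says that the truncated integrals over `ε < |t| < R` converge to `g x` as `ε → 0+`, `R → ∞`. -/
theorem result (p₁ p₂ p₃ r : ℝ) (h₁ : 1 < p₁) (h₂ : 1 < p₂) (h₃ : 1 < p₃) (hr : 0 < r)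
    (hH : 1 / r = 1 / p₁ + 1 / p₂ + 1 / p₃) (hsmall : r ≤ 37 / 80) :
    ¬ ∃ C : ℝ, ∀ (f₁ f₂ f₃ : SchwartzMap ℝ ℂ) (g : ℝ → ℂ),
      (∀ x : ℝ, Filter.Tendsto (fun q : ℝ × ℝ => ∫ t in {t : ℝ | q.1 < |t| ∧ |t| < q.2},
          f₁ (x - t) * f₂ (x - 2 * t) * f₃ (x - 3 * t) / (t : ℂ))
        ((nhdsWithin 0 (Set.Ioi 0)) ×ˢ Filter.atTop) (nhds (g x))) →
      eLpNorm g (ENNReal.ofReal r) volume ≤ ENNReal.ofReal C *
        eLpNorm f₁ (ENNReal.ofReal p₁) volume * eLpNorm f₂ (ENNReal.ofReal p₂) volume *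
        eLpNorm f₃ (ENNReal.ofReal p₃) volume :=
  Vale.Agent.Helper25.TrilinearCover.unbounded_of_le p₁ p₂ p₃ r h₁ h₂ h₃ hr hH hsmall

end Vale.Agent.Results.P141.AllTuplesR4625
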