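import Mathlib
import Vale.Agent.Helper25.TrilinearDigits

/-!
# P141: a finite criterion for unboundedness of the trilinear Hilbert transform

For Schwartz `f₁, f₂, f₃` let `T(f₁, f₂, f₃)(x)` be the limit, as `ε → 0+` and `R → ∞`, of
`∫_{ε < |t| < R} f₁(x - t) f₂(x - 2t) f₃(x - 3t) dt / t`.

**Criterion.** Let `q ≥ 2` be an integer and let `u, v, w ≥ 0` be weights on the integers that
vanish outside finite sets `A, B, C`, each contained in a window of `q` consecutive integers;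
let `K` be a finite set of integers contained in a window of `q` consecutive integers.  If
`q * ‖u‖_{ℓ^{p₁}} * ‖v‖_{ℓ^{p₂}} * ‖w‖_{ℓ^{p₃}} <
   (∑ k ∈ K, (∑ a, u a * v (2a - k) * w (3a - 2k)) ^ r) ^ (1/r)`
(the inner sum runs over the four-term progressions `k, a, 2a - k, 3a - 2k`, that is
`k, k - t, k - 2t, k - 3t`), then `T` is not bounded at `(p₁, p₂, p₃; r)`.

The proof takes weights that are products over base `q` digits and sums of integer translates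
of a bump; see `Vale.Agent.Helper25.TrilinearDigits`.
-/

namespace Vale.Agent.Results.P141.DigitPrinciple

open MeasureTheory

/-- **A finite criterion for unboundedness of the trilinear Hilbert transform.**
In the conclusion, `g` is the pointwise principal value `T(f₁, f₂, f₃)`: the hypothesis on `g`
says that the truncated integrals over `ε < |t| < R` converge to `g x` as `ε → 0+`, `R → ∞`. -/
theorem result (p₁ p₂ p₃ r : ℝ) (hp₁ : 0 < p₁) (hp₂ : 0 < p₂) (hp₃ : 0 < p₃) (hr : 0 < r)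
    (q : ℤ) (hq : 2 ≤ q) (oA oB oC oK : ℤ) (A B C K : Finset ℤ) (u v w : ℤ → ℝ)
    (hA : ∀ a ∈ A, oA ≤ a ∧ a < oA + q) (hB : ∀ b ∈ B, oB ≤ b ∧ b < oB + q)
    (hC : ∀ c ∈ C, oC ≤ c ∧ c < oC + q) (hK : ∀ k ∈ K, oK ≤ k ∧ k < oK + q)
    (hu : ∀ s, 0 ≤ u s) (hv : ∀ s, 0 ≤ v s) (hw : ∀ s, 0 ≤ w s)
    (hu0 : ∀ s, s ∉ A → u s = 0) (hv0 : ∀ s, s ∉ B → v s = 0) (hw0 : ∀ s, s ∉ C → w s = 0)
    (hgain : (q : ℝ) * (∑ a ∈ A, u a ^ p₁) ^ (1 / p₁) * (∑ b ∈ B, v b ^ p₂) ^ (1 / p₂) *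
        (∑ c ∈ C, w c ^ p₃) ^ (1 / p₃) <
      (∑ k ∈ K, (∑ a ∈ A, u a * v (2 * a - k) * w (3 * a - 2 * k)) ^ r) ^ (1 / r)) :
    ¬ ∃ Cst : ℝ, ∀ (f₁ f₂ f₃ : SchwartzMap ℝ ℂ) (g : ℝ → ℂ),
      (∀ x : ℝ, Filter.Tendsto (fun q : ℝ × ℝ => ∫ t in {t : ℝ | q.1 < |t| ∧ |t| < q.2},
          f₁ (x - t) * f₂ (x - 2 * t) * f₃ (x - 3 * t) / (t : ℂ))
        ((nhdsWithin 0 (Set.Ioi 0)) ×ˢ Filter.atTop) (nhds (g x))) →
      eLpNorm g (ENNReal.ofReal r) volume ≤ ENNReal.ofReal Cst *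
        eLpNorm f₁ (ENNReal.ofReal p₁) volume * eLpNorm f₂ (ENNReal.ofReal p₂) volume *
        eLpNorm f₃ (ENNReal.ofReal p₃) volume :=
  Vale.Agent.Helper25.TrilinearDigits.unbounded_of_gain' hp₁ hp₂ hp₃ hr hq hA hB hC hK hu hv hw
    hu0 hv0 hw0 hgain

end Vale.Agent.Results.P141.DigitPrinciple
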