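import Mathlib
import Vale.Agent.Helper25.TrilinearEdge

/-!
# P141: near the faces `p₂ = 1` and `p₃ = 1` the trilinear Hilbert transform is unbounded
# at every Hölder tuple with `r < 1/2`

For Schwartz `f₁, f₂, f₃` let `T(f₁, f₂, f₃)(x)` be the limit, as `ε → 0+` and `R → ∞`, of
`∫_{ε < |t| < R} f₁(x - t) f₂(x - 2t) f₃(x - 3t) dt / t`.  We show: if `p₁, p₂, p₃ > 1` are real,
`1/r = 1/p₁ + 1/p₂ + 1/p₃`, `r < 1/2`, and `p₂` or `p₃` is at most
`1 + (1 - 2r) / log (6 / (1 - 2r))`, then there is no constant `C` with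
`‖T(f₁, f₂, f₃)‖_{L^r} ≤ C ‖f₁‖_{p₁} ‖f₂‖_{p₂} ‖f₃‖_{p₃}` for all Schwartz `f₁, f₂, f₃`.
So close to these two faces of the exponent cube the tuples of unboundedness reach all the way
up to `r = 1/2`.

The counterexamples come from the digit criterion (`Vale.Agent.Helper25.TrilinearDigits`) applied
to two explicit families of sets (`Vale.Agent.Helper25.TrilinearEdge`):
`A = 2 * {0, …, m - 1}`, `B = {0, 1, 2, 3}`, `C = 2 * {-(m - 1), …, 3}` in base `4 m`, and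
`A = 2 * {0, …, m - 1}`, `B = {0, …, m + 1}`, `C = {0, 2, 4}` in base `3 m`.
-/

namespace Vale.Agent.Results.P141.NearFaces

open MeasureTheory

/-- **Unboundedness of the trilinear Hilbert transform near the faces `p₂ = 1`, `p₃ = 1`.**
In the statement, `g` is the pointwise principal value `T(f₁, f₂, f₃)`: the hypothesis on `g`
says that the truncated integrals over `ε < |t| < R` converge to `g x` as `ε → 0+`, `R → ∞`. -/
theorem result (p₁ p₂ p₃ r : ℝ) (h₁ : 1 < p₁) (h₂ : 1 < p₂) (h₃ : 1 < p₃) (hr : 0 < r)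
    (hH : 1 / r = 1 / p₁ + 1 / p₂ + 1 / p₃) (hhalf : r < 1 / 2)
    (hface : p₂ ≤ 1 + (1 - 2 * r) / Real.log (6 / (1 - 2 * r)) ∨
      p₃ ≤ 1 + (1 - 2 * r) / Real.log (6 / (1 - 2 * r))) :
    ¬ ∃ C : ℝ, ∀ (f₁ f₂ f₃ : SchwartzMap ℝ ℂ) (g : ℝ → ℂ),
      (∀ x : ℝ, Filter.Tendsto (fun q : ℝ × ℝ => ∫ t in {t : ℝ | q.1 < |t| ∧ |t| < q.2},
          f₁ (x - t) * f₂ (x - 2 * t) * f₃ (x - 3 * t) / (t : ℂ))
        ((nhdsWithin 0 (Set.Ioi 0)) ×ˢ Filter.atTop) (nhds (g x))) →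
      eLpNorm g (ENNReal.ofReal r) volume ≤ ENNReal.ofReal C *
        eLpNorm f₁ (ENNReal.ofReal p₁) volume * eLpNorm f₂ (ENNReal.ofReal p₂) volume *
        eLpNorm f₃ (ENNReal.ofReal p₃) volume := by
  have hε : 0 < 1 / 2 - r := by linarith
  have e1 : 2 * (1 / 2 - r) = 1 - 2 * r := by ring
  have e2 : 3 / (1 / 2 - r) = 6 / (1 - 2 * r) := by
    have h12 : (1 : ℝ) - 2 * r ≠ 0 := by linarith
    have h12' : (1 : ℝ) / 2 - r ≠ 0 := by linarith
    field_simp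
    ring
  have key := Vale.Agent.Helper25.TrilinearEdge.near_faces_explicit (1 / 2 - r) hε p₁ p₂ p₃ r
    h₁ h₂ h₃ hr hH (by linarith)
  rw [e1, e2] at key
  exact key hface

end Vale.Agent.Results.P141.NearFaces
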