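import Mathlib
import Vale.Agent.Helper25.TrilinearCover
import Vale.Agent.Helper25.TrilinearCertE
import Vale.Agent.Helper25.TrilinearEdge

/-!
# P141: a region of Hölder tuples at which the trilinear Hilbert transform is unbounded

For Schwartz `f₁, f₂, f₃` let `T(f₁, f₂, f₃)(x)` be the limit, as `ε → 0+` and `R → ∞`, of
`∫_{ε < |t| < R} f₁(x - t) f₂(x - 2t) f₃(x - 3t) dt / t`.  Let `p₁, p₂, p₃ > 1` be real and
`1/r = 1/p₁ + 1/p₂ + 1/p₃`.  There is no constant `C` with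
`‖T(f₁, f₂, f₃)‖_{L^r} ≤ C ‖f₁‖_{p₁} ‖f₂‖_{p₂} ‖f₃‖_{p₃}` for all Schwartz `f₁, f₂, f₃` as soon
as one of the following holds:

* `r ≤ 37/80`;
* `p₁ = p₂ = p₃ ≤ 347/250`;
* `(1 - 1/p₂) log m + (1/p₃) log (1 + 3/m) < (1/p₁ + 1/p₃ - 1) log 4` for some integer `m ≥ 3`;
* `(1 - 1/p₃) log m + (1/p₂) log (1 + 2/m) < (1/p₁ + 1/p₂ - 1) log 3` for some integer `m ≥ 2`.

The last two conditions describe neighbourhoods of the faces `p₂ = 1` and `p₃ = 1` of the
exponent cube that reach up to `r = 1/2`.  All four parts come from the digit criterion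
(`Vale.Agent.Helper25.TrilinearDigits`): the first two through weighted configurations and an
entropy bound (`TrilinearEntropy`, `TrilinearCover`, `TrilinearCertE`), the last two through
explicit sets (`TrilinearEdge`).
-/

namespace Vale.Agent.Results.P141.RegionUnion

open MeasureTheory

/-- **A region of unboundedness for the trilinear Hilbert transform.**
In the statement, `g` is the pointwise principal value `T(f₁, f₂, f₃)`: the hypothesis on `g`
says that the truncated integrals over `ε < |t| < R` converge to `g x` as `ε → 0+`, `R → ∞`. -/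
theorem result (p₁ p₂ p₃ r : ℝ) (h₁ : 1 < p₁) (h₂ : 1 < p₂) (h₃ : 1 < p₃) (hr : 0 < r)
    (hH : 1 / r = 1 / p₁ + 1 / p₂ + 1 / p₃)
    (hreg : r ≤ 37 / 80 ∨ (p₁ = p₂ ∧ p₂ = p₃ ∧ p₁ ≤ 347 / 250) ∨
      (∃ m : ℕ, 3 ≤ m ∧ (1 - 1 / p₂) * Real.log m + 1 / p₃ * Real.log (1 + 3 / m) <
        (1 / p₁ + 1 / p₃ - 1) * Real.log 4) ∨
      (∃ m : ℕ, 2 ≤ m ∧ (1 - 1 / p₃) * Real.log m + 1 / p₂ * Real.log (1 + 2 / m) <
        (1 / p₁ + 1 / p₂ - 1) * Real.log 3)) :
    ¬ ∃ C : ℝ, ∀ (f₁ f₂ f₃ : SchwartzMap ℝ ℂ) (g : ℝ → ℂ),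
      (∀ x : ℝ, Filter.Tendsto (fun q : ℝ × ℝ => ∫ t in {t : ℝ | q.1 < |t| ∧ |t| < q.2},
          f₁ (x - t) * f₂ (x - 2 * t) * f₃ (x - 3 * t) / (t : ℂ))
        ((nhdsWithin 0 (Set.Ioi 0)) ×ˢ Filter.atTop) (nhds (g x))) →
      eLpNorm g (ENNReal.ofReal r) volume ≤ ENNReal.ofReal C *
        eLpNorm f₁ (ENNReal.ofReal p₁) volume * eLpNorm f₂ (ENNReal.ofReal p₂) volume *
        eLpNorm f₃ (ENNReal.ofReal p₃) volume := by
  have x1 : 1 / p₁ < 1 := by
    rw [div_lt_one (by linarith)]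
    exact h₁
  have x2 : 1 / p₂ < 1 := by
    rw [div_lt_one (by linarith)]
    exact h₂
  have x3 : 1 / p₃ < 1 := by
    rw [div_lt_one (by linarith)]
    exact h₃
  have y1 : 0 < 1 / p₁ := by positivity
  have y2 : 0 < 1 / p₂ := by positivity
  have y3 : 0 < 1 / p₃ := by positivity
  rcases hreg with hsmall | ⟨h12, h23, hp⟩ | ⟨m, hm, hlog⟩ | ⟨m, hm, hlog⟩
  · exact Vale.Agent.Helper25.TrilinearCover.unbounded_of_le p₁ p₂ p₃ r h₁ h₂ h₃ hr hH hsmall
  · subst h12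
    subst h23
    have hp0 : 0 < p₁ := by linarith
    have hx : 250 / 347 ≤ 1 / p₁ := by
      rw [le_div_iff₀ hp0]
      linarith
    have hr1 : r ≤ 1 := by
      have : 1 ≤ 1 / r := by
        rw [hH]
        linarith
      rw [le_div_iff₀ hr] at this
      linarith
    apply Vale.Agent.Helper25.TrilinearCertE.unbounded p₁ p₁ p₁ r hp0 hp0 hp0 hr hr1 hH
    rw [hH]
    push_cast
    linarith
  · exact Vale.Agent.Helper25.TrilinearEdge.edge2_log (by linarith) (by linarith) (by linarith)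
      hr hH m hm hlog
  · exact Vale.Agent.Helper25.TrilinearEdge.edge3_log (by linarith) (by linarith) (by linarith)
      hr hH m hm hlog

end Vale.Agent.Results.P141.RegionUnion
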